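import Vale.Agent.P331.F.Rows

/-!
# Row A6c : use of QJRL for every fixed pool
-/

set_option autoImplicit false
set_option linter.unusedSectionVars false

namespace Vale.Agent.P331.H718

open Finset Vale.Agent.P331.H489 Vale.Agent.P331.H250 Vale.Agent.P331.F
open scoped Classical

section

variable {E : Type} [Fintype E]

private theorem sum_ob' (f : Option Bool → ℝ) :
    ∑ l, f l = f none + f (some true) + f (some false) := by
  rw [Fintype.sum_option, Fintype.sum_bool]; ring

/-- a thinning of a thinning, and the rest of the latter -/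
theorem TH_inner (r q : E → ℝ) (S : Finset E) (F : Finset E → Finset E → ℝ) :
    TH r S (fun R => TH q R (fun G => F G (R \ G))) =
      T2 (fun e => r e * q e) (fun e => r e * (1 - q e)) S F := by
  let k : E → Bool → Bool → ℝ := fun e c b =>
    if c = true then (if b then q e else 1 - q e) else (if b then 0 else 1)
  let g : Bool × Bool → Option Bool := fun x =>
    if x.1 = true then (if x.2 = true then some true else some false) else none
  have h1 : TH r S (fun R => TH q R (fun G => F G (R \ G))) =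
      EX (bw r S) (fun ω => EX (fun e => k e (ω e))
        (fun ω' => F (tset ω') (tset ω \ tset ω'))) := by
    unfold TH
    refine EX_congr (fun _ _ => rfl) fun ω => EX_congr (fun e b => ?_) fun _ => rfl
    simp only [bw, k, mem_tset]
  have h2 : ∀ ω ω' : E → Bool, (∀ e, (bw r S e (ω e)) * k e (ω e) (ω' e) ≠ 0) →
      F (tset ω') (tset ω \ tset ω') = F (lset (some true) (fun e => g (ω e, ω' e)))
        (lset (some false) (fun e => g (ω e, ω' e))) := by
    intro ω ω' h
    have h3 : ∀ e, ω' e = true → ω e = true := by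
      intro e h4
      by_contra h5
      have h5' : ω e = false := by simpa using h5
      apply h e
      simp [k, h4, h5']
    congr 1
    · ext e
      simp only [mem_tset, mem_lset, g]
      have h4 := h3 e
      rcases h1 : ω e with _ | _ <;> rcases h2 : ω' e with _ | _ <;> simp [h1, h2] at h4 ⊢
    · ext e
      simp only [mem_sdiff, mem_tset, mem_lset, g]
      have h4 := h3 e
      rcases h1 : ω e with _ | _ <;> rcases h2 : ω' e with _ | _ <;> simp [h1, h2] at h4 ⊢
  rw [h1, EX_bind (bw r S) k (fun ω ω' => F (tset ω') (tset ω \ tset ω')),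
    EX_congr_supp (G := fun τ => (fun κ : E → Option Bool => F (lset (some true) κ)
      (lset (some false) κ)) (g ∘ τ)) (fun τ hτ => h2 _ _ hτ)]
  refine (EX_push g _ (fun κ : E → Option Bool => F (lset (some true) κ)
      (lset (some false) κ))).trans ?_
  unfold T2
  refine EX_congr (fun e c => ?_) fun _ => rfl
  rw [sum_filter, Fintype.sum_prod_type, Fintype.sum_bool, Fintype.sum_bool, Fintype.sum_bool]
  by_cases he : e ∈ S
  · rcases c with _ | _ | _ <;> simp [bw, bw2, k, g, he] <;> ring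
  · rcases c with _ | _ | _ <;> simp [bw, bw2, k, g, he]

theorem Th_inner {r q r' q' : ℝ} (h1 : r * q = r') (h2 : r * (1 - q) = (1 - r') * q')
    (S : Finset E) (F : Finset E → Finset E → ℝ) :
    Th r S (fun R => Th q R (fun G => F G (R \ G))) =
      Th r' S (fun G => Th q' (S \ G) (fun R => F G R)) := by
  unfold Th
  rw [TH_inner, TH_TH]
  exact T2_congr_rates (fun _ _ => h1) (fun _ _ => h2) _

theorem Th_mono {t : ℝ} (h0 : 0 ≤ t) (h1 : t ≤ 1) (S : Finset E) {f g : Finset E → ℝ}
    (hf : ∀ G, G ⊆ S → f G ≤ g G) : Th t S f ≤ Th t S g :=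
  TH_mono (fun _ => h0) (fun _ => h1) S hf

theorem Th_nonneg {t : ℝ} (h0 : 0 ≤ t) (h1 : t ≤ 1) (S : Finset E) {f : Finset E → ℝ}
    (hf : ∀ G, G ⊆ S → 0 ≤ f G) : 0 ≤ Th t S f :=
  TH_nonneg (fun _ => h0) (fun _ => h1) S hf

theorem Th_add (t : ℝ) (S : Finset E) (f g : Finset E → ℝ) :
    Th t S (fun G => f G + g G) = Th t S f + Th t S g := TH_add _ _ _ _

theorem Th_mul (t : ℝ) (S : Finset E) (c : ℝ) (f : Finset E → ℝ) :
    Th t S (fun G => c * f G) = c * Th t S f := TH_mul _ _ _ _

theorem Th_const (t : ℝ) (S : Finset E) (c : ℝ) : Th t S (fun _ => c) = c := TH_const _ _ _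

theorem ind_nonneg (P : Prop) : 0 ≤ F.ind P := by
  unfold F.ind
  split_ifs <;> norm_num

theorem ind_le_one (P : Prop) : F.ind P ≤ 1 := by
  unfold F.ind
  split_ifs <;> norm_num

theorem ind_pos {P : Prop} (h : P) : F.ind P = 1 := if_pos h

theorem ind_neg {P : Prop} (h : ¬ P) : F.ind P = 0 := if_neg h

end

theorem rowC : RowC := by
  intro p g n lam hp0 hp1 hg0 hgn hn hlam hQ E _ D hD κ δ a hδ ha
  have hn0 : 0 < n := by linarith
  have hg1 : g ≤ 1 / 32 := by linarith
  set c : ℝ := (1 - p) * g with hc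
  have hc0 : 0 < c := mul_pos (by linarith) hg0
  have hc1 : c ≤ 1 / 32 := by nlinarith
  set ρ1 : ℝ := (1 - p) * (1 - g) / (1 - c) with hρ1
  have h1c : (0 : ℝ) < 1 - c := by linarith
  have h1g : (0 : ℝ) < 1 - g := by linarith
  have h2g : (0 : ℝ) < 1 - 2 * g := by linarith
  have n1g : (1 - g : ℝ) ≠ 0 := h1g.ne'
  have n2g : (1 - 2 * g : ℝ) ≠ 0 := h2g.ne'
  have n1c : (1 - c : ℝ) ≠ 0 := h1c.ne'
  have hρ0 : 0 ≤ ρ1 := div_nonneg (mul_nonneg (by linarith) h1g.le) h1c.le
  have hρ1' : ρ1 ≤ 1 := by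
    rw [hρ1, div_le_one h1c, hc]
    nlinarith
  set g' : ℝ := g / (1 - g) with hg'
  have hg'0 : 0 ≤ g' := div_nonneg hg0.le h1g.le
  have hg'1 : g' ≤ 1 := by
    rw [hg', div_le_one h1g]
    linarith
  set θ : ℝ := n / (1 - 2 * g) with hθ
  set η : ℝ := g / n with hη
  have hθ0 : 0 ≤ θ := div_nonneg hn0.le h2g.le
  have hθ1 : θ ≤ 1 := by
    rw [hθ, div_le_one h2g]
    linarith
  have hη0 : 0 ≤ η := div_nonneg hg0.le hn0.le
  have hη1 : η ≤ 1 := by
    rw [hη, div_le_one hn0]
    linarith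
  have hθη : θ * (1 - η) = (n - g) / (1 - 2 * g) := by
    rw [hθ, hη]
    field_simp
  have ht0 : 0 ≤ θ * (1 - η) := mul_nonneg hθ0 (by linarith)
  have ht1 : θ * (1 - η) ≤ 1 := by nlinarith
  -- the events for one pool
  let Ev : Finset E → Finset E → Finset E → Prop := fun X G R' =>
    ∃ Y ⊆ X, Y.card ≤ κ ∧ Th θ R' (fun N => F.ind (¬ D (Y ∪ G ∪ N))) ≤ δ
  let Bf : Finset E → Finset E → Finset E → ℝ := fun X G R' =>
    Th (θ * (1 - η)) R' (fun N => F.ind (¬ D (X ∪ (G ∪ N))))
  have hB0 : ∀ X G R', 0 ≤ Bf X G R' := fun X G R' => Th_nonneg ht0 ht1 _ fun _ _ => ind_nonneg _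
  have hB1 : ∀ X G R', Bf X G R' ≤ 1 := fun X G R' =>
    (Th_mono ht0 ht1 _ fun _ _ => ind_le_one _).trans (le_of_eq (Th_const _ _ _))
  have hpt : ∀ X R : Finset E, F.ind (Fam g' θ a κ δ D R X ∧
      ¬ Th (n / (1 - g)) R (fun N => F.ind (¬ D (X ∪ N))) ≤ 3 * a) ≤
      (1 / a) * Th g' R (fun G => F.ind (Ev X G (R \ G) ∧ a < Bf X G (R \ G))) := by
    intro X R
    have hR0 : 0 ≤ Th g' R (fun G => F.ind (Ev X G (R \ G) ∧ a < Bf X G (R \ G))) :=
      Th_nonneg hg'0 hg'1 _ fun _ _ => ind_nonneg _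
    by_cases h : Fam g' θ a κ δ D R X ∧
      ¬ Th (n / (1 - g)) R (fun N => F.ind (¬ D (X ∪ N))) ≤ 3 * a
    · rw [ind_pos h]
      obtain ⟨h1, h2⟩ := h
      push Not at h2
      have e1 : Th (n / (1 - g)) R (fun N => F.ind (¬ D (X ∪ N))) =
          Th g' R (fun G => Bf X G (R \ G)) := by
        symm
        refine TH_TH_union (fun _ => g') (fun _ => θ * (1 - η)) (fun _ => n / (1 - g)) R
          (fun _ _ => ?_) (fun N => F.ind (¬ D (X ∪ N)))
        show g' + (1 - g') * (θ * (1 - η)) = n / (1 - g)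
        rw [hθη, hg']
        have e0 : 1 - g / (1 - g) = (1 - 2 * g) / (1 - g) := by
          field_simp
          ring
        rw [e0, div_mul_div_comm, mul_comm (1 - 2 * g) (n - g), mul_div_mul_right _ _ n2g,
          ← add_div]
        congr 1
        ring
      rw [e1] at h2
      have h3 : Th g' R (fun G => Bf X G (R \ G)) ≤
          Th g' R (fun G => F.ind (¬ Ev X G (R \ G)) + (a +
            F.ind (Ev X G (R \ G) ∧ a < Bf X G (R \ G)))) := by
        refine Th_mono hg'0 hg'1 _ fun G _ => ?_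
        have := hB0 X G (R \ G)
        have := hB1 X G (R \ G)
        by_cases hE : Ev X G (R \ G)
        · rw [ind_neg (not_not.2 hE)]
          by_cases hb : a < Bf X G (R \ G)
          · rw [ind_pos ⟨hE, hb⟩]
            linarith
          · rw [ind_neg fun h => hb h.2]
            push Not at hb
            linarith
        · rw [ind_pos hE, ind_neg fun h => hE h.1]
          linarith
      rw [Th_add, Th_add, Th_const] at h3
      have h4 : Th g' R (fun G => F.ind (¬ Ev X G (R \ G))) ≤ a := h1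
      rw [div_mul_eq_mul_div, one_mul, le_div_iff₀ ha, one_mul]
      linarith
    · rw [ind_neg h]
      exact mul_nonneg (by positivity) hR0
  -- sum over `X` and `R`
  refine (Th_mono hc0.le (by linarith) univ fun X _ => Th_mono hρ0 hρ1' (univ \ X)
    fun R _ => hpt X R).trans ?_
  simp only [Th_mul]
  -- reorder
  set ρ : ℝ := (1 - p) * (1 - 2 * g) / (1 - c) with hρ
  set v : ℝ := c / (1 - c) with hv
  have h1v : (0 : ℝ) < 1 - v := by
    rw [hv, sub_pos, div_lt_one h1c]
    linarith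
  have hρpos : 0 < ρ := div_pos (mul_pos (by linarith) h2g) h1c
  have e2 : ∀ X : Finset E, Th ρ1 (univ \ X) (fun R => Th g' R (fun G =>
      F.ind (Ev X G (R \ G) ∧ a < Bf X G (R \ G)))) =
      Th v (univ \ X) (fun G => Th (ρ / (1 - v)) ((univ \ X) \ G) (fun R' =>
        F.ind (Ev X G R' ∧ a < Bf X G R'))) := by
    intro X
    refine Th_inner ?_ ?_ (univ \ X) (fun G R' => F.ind (Ev X G R' ∧ a < Bf X G R'))
    · rw [hρ1, hg', hv, hc]
      field_simp
    · rw [mul_div_cancel₀ _ h1v.ne', hρ1, hg', hρ]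
      field_simp
      ring
  simp only [e2]
  have hswap : Th c univ (fun X => Th v (univ \ X) (fun G => Th (ρ / (1 - v)) ((univ \ X) \ G)
      (fun R' => F.ind (Ev X G R' ∧ a < Bf X G R')))) =
      Th c univ (fun G => Th v (univ \ G) (fun X => Th (ρ / (1 - v)) ((univ \ G) \ X)
      (fun R' => F.ind (Ev X G R' ∧ a < Bf X G R')))) := by
    have h3 : (1 - c) * v = c := by
      rw [hv]
      field_simp
    have h4 := TH_TH_swap (fun _ : E => c) (fun _ => v) (fun _ => c) (fun _ => v) univ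
      (fun _ _ => h3) (fun _ _ => h3) (fun X G => Th (ρ / (1 - v)) ((univ \ X) \ G)
      (fun R' => F.ind (Ev X G R' ∧ a < Bf X G R')))
    refine h4.trans ?_
    simp only [sdiff_right_comm (univ : Finset E)]
    rfl
  rw [hswap]
  have hvρ : v = ρ * η * θ := by
    have e5 : ρ * η * θ = v * ((1 - 2 * g) * (1 - 2 * g)⁻¹) * (n * n⁻¹) := by
      rw [hv, hρ, hη, hθ, hc]
      ring
    rw [e5, mul_inv_cancel₀ n2g, mul_inv_cancel₀ hn0.ne', mul_one, mul_one]
  have hsum : v + ρ ≤ 1 := by
    rw [hv, hρ, ← add_div, div_le_one h1c, hc]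
    nlinarith
  have hone : ∀ G : Finset E, Th v (univ \ G) (fun X => Th (ρ / (1 - v)) ((univ \ G) \ X)
      (fun R' => F.ind (Ev X G R' ∧ a < Bf X G R'))) ≤ (lam ^ κ * δ) ^ 7 / a ^ 16 := by
    intro G
    have hDG : Up (fun A : Finset E => D (A ∪ G)) := fun A B hAB h =>
      hD _ _ (union_subset_union_left hAB) h
    have h5 := hQ E (fun A => D (A ∪ G)) hDG (univ \ G) v ρ hρpos hvρ hsum κ δ a hδ ha
    have e3 : ∀ Y N : Finset E, Y ∪ N ∪ G = Y ∪ G ∪ N := fun Y N => union_right_comm Y N G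
    have e4 : ∀ X N : Finset E, X ∪ (G ∪ N) = X ∪ G ∪ N := fun X N => (union_assoc X G N).symm
    simp only [e3] at h5
    simp only [Ev, Bf, e4]
    exact h5
  calc (1 / a) * Th c univ (fun G => Th v (univ \ G) (fun X => Th (ρ / (1 - v)) ((univ \ G) \ X)
      (fun R' => F.ind (Ev X G R' ∧ a < Bf X G R'))))
      ≤ (1 / a) * ((lam ^ κ * δ) ^ 7 / a ^ 16) := by
        refine mul_le_mul_of_nonneg_left ?_ (by positivity)
        exact (Th_mono hc0.le (by linarith) univ fun G _ => hone G).trans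
          (le_of_eq (Th_const _ _ _))
    _ = (lam ^ κ * δ) ^ 7 / a ^ 17 := by
        field_simp

end Vale.Agent.P331.H718
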