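import Vale.Agent.P331.H718.RowC

/-!
# Row A6d : the first part of Lemma L
-/

set_option autoImplicit false
set_option linter.unusedSectionVars false

namespace Vale.Agent.P331.H718

open Finset Vale.Agent.P331.H489 Vale.Agent.P331.H250 Vale.Agent.P331.F
open scoped Classical

theorem xx_succ (B j : ℕ) : xx B (j + 1) = xx B j ^ 200 := by
  unfold xx
  rw [pow_succ, pow_mul]

theorem one_le_xx {B : ℕ} (hB : 1 ≤ B) (j : ℕ) : 1 ≤ xx B j := Nat.one_le_pow _ _ hB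

theorem le_xx {B : ℕ} (hB : 1 ≤ B) (j : ℕ) : B ≤ xx B j := by
  unfold xx
  calc B = B ^ 1 := (pow_one B).symm
    _ ≤ B ^ 200 ^ j := Nat.pow_le_pow_right hB (Nat.one_le_pow _ _ (by norm_num))

theorem pow200_le_xx {B : ℕ} (hB : 2 ≤ B) (j : ℕ) : 200 ^ j ≤ xx B j := by
  unfold xx
  exact (Nat.lt_pow_self (by omega : 1 < B)).le

theorem ind_mono {P Q : Prop} (h : P → Q) : F.ind P ≤ F.ind Q := by
  by_cases hP : P
  · rw [ind_pos hP, ind_pos (h hP)]
  · rw [ind_neg hP]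
    exact ind_nonneg Q

theorem fam_mono {E : Type} [Fintype E] {g₁ t₁ a : ℝ} (h0 : 0 ≤ g₁) (h1 : g₁ ≤ 1) {κ : ℕ} {δ : ℝ}
    {D : Finset E → Prop} {R A A' : Finset E} (hA : A ⊆ A') (h : Fam g₁ t₁ a κ δ D R A) :
    Fam g₁ t₁ a κ δ D R A' := by
  unfold Fam at h ⊢
  refine le_trans (Th_mono h0 h1 R fun G _ => ?_) h
  refine ind_mono ?_
  intro h2 h3
  obtain ⟨Y, hY, h4⟩ := h3
  exact h2 ⟨Y, hY.trans hA, h4⟩

theorem rowL1_of (hTr : RowTr) (hJ : RowJ) (hC : RowC) : RowL1 := by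
  intro p g n lam B hc E _ D hD j hj
  obtain ⟨i, rfl⟩ : ∃ i, j = i + 1 := ⟨j - 1, by omega⟩
  rw [Nat.add_sub_cancel]
  have hB16 := hc.B16
  have hB1 : 1 ≤ B := by omega
  set y : ℝ := (xx B i : ℝ) with hy
  set x : ℝ := (xx B (i + 1) : ℝ) with hx
  have hxy : x = y ^ 200 := by
    rw [hx, hy, xx_succ]
    push_cast
    rfl
  have hy16 : (16 : ℝ) ≤ y := by
    have := le_xx hB1 i
    rw [hy]
    exact_mod_cast le_trans hB16 this
  have hy0 : 0 < y := by linarith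
  have hy1 : 1 ≤ y := by linarith
  have hx0 : 0 < x := by rw [hxy]; positivity
  have hx1 : 1 ≤ x := by rw [hxy]; exact one_le_pow₀ hy1
  have hp0 := hc.p0
  have hp1 := hc.p1
  have hg0 := hc.g0
  have hgn := hc.gn
  have hn0 := hc.n0
  have hn1 := hc.n1
  have hg1 : g ≤ 1 / 32 := by linarith
  have h1g : (0 : ℝ) < 1 - g := by linarith
  have hg'0 : 0 ≤ g / (1 - g) := div_nonneg hg0.le h1g.le
  have hg'1 : g / (1 - g) ≤ 1 := by
    rw [div_le_one h1g]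
    linarith
  have hpg : (B : ℝ) ^ 24000 * p ≤ (1 - p) * g := by
    have := hc.lam0
    rwa [le_div_iff₀ hp0] at this
  have hBpos : (1 : ℝ) ≤ (B : ℝ) := by exact_mod_cast hB1
  have hB24 : (1 : ℝ) ≤ (B : ℝ) ^ 24000 := one_le_pow₀ hBpos
  have hple : p ≤ (1 - p) * g := by nlinarith
  have hpg0 : 0 < (1 - p) * g := mul_pos (by linarith) hg0
  -- constants of the levels
  set κ1 : ℕ := (lev B (i + 1)).κ with hκ1
  set κ0 : ℕ := (lev B i).κ with hκ0
  have hδ1 : (lev B (i + 1)).δ = (x ^ 20)⁻¹ := rfl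
  have hδ0 : (lev B i).δ = (y ^ 20)⁻¹ := rfl
  have hτ1 : (lev B (i + 1)).τ = x⁻¹ := rfl
  have hκ1' : κ1 ≤ 200 ^ (i + 1) := Nat.sub_le _ _
  have hκ0' : κ0 + 1 = 200 ^ i := by
    have h : 1 ≤ 200 ^ i := Nat.one_le_pow _ _ (by norm_num)
    show 200 ^ i - 1 + 1 = 200 ^ i
    omega
  set a : ℝ := (y ^ 23)⁻¹ with ha
  have ha0 : 0 < a := by rw [ha]; positivity
  let Fm : Finset E → Finset E → Prop := fun R A =>
    Fam (g / (1 - g)) (n / (1 - 2 * g)) a κ1 (x * (x ^ 20)⁻¹) D R A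
  let Hp : Finset E → Finset E → Prop := fun R A =>
    Th (n / (1 - g)) R (fun N => F.ind (¬ D (A ∪ N))) ≤ 3 * a
  let Ev : Finset E → Finset E → Prop := fun V G => ∃ K ⊆ V, Fm ((univ \ V) \ G) K ∧
      ∀ U' ⊆ K, U'.card ≤ κ0 → ¬ Hp ((univ \ V) \ G) (U' ∪ G)
  have key : ∀ V : Finset E, F.ind (∃ X ⊆ V,
      ff g (n / (1 - g)) (lev B (i + 1)) D (univ \ V) X ≤ (lev B (i + 1)).τ ∧
      (y ^ 163)⁻¹ ≤ Th g (univ \ V) (fun G =>
        F.ind (¬ ∃ Y ⊆ X, good (n / (1 - g)) (lev B i) D (univ \ V) G Y))) ≤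
      (2 * y ^ 163) * Th g (univ \ V) (fun G => F.ind (Ev V G)) := by
    intro V
    have hR0 : 0 ≤ Th g (univ \ V) (fun G => F.ind (Ev V G)) :=
      Th_nonneg hg0.le (by linarith) _ fun _ _ => ind_nonneg _
    by_cases h : ∃ X ⊆ V,
      ff g (n / (1 - g)) (lev B (i + 1)) D (univ \ V) X ≤ (lev B (i + 1)).τ ∧
      (y ^ 163)⁻¹ ≤ Th g (univ \ V) (fun G =>
        F.ind (¬ ∃ Y ⊆ X, good (n / (1 - g)) (lev B i) D (univ \ V) G Y))
    swap
    · rw [ind_neg h]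
      positivity
    rw [ind_pos h]
    obtain ⟨X, hXV, h1, h2⟩ := h
    set S : Finset E := univ \ V with hS
    have h3 : Th g S (fun G => F.ind (¬ ∃ Y ⊆ X, Y.card ≤ κ1 ∧
        Th (n / (1 - g)) (S \ G) (fun N => F.ind (¬ D (Y ∪ G ∪ N))) ≤ (x ^ 20)⁻¹)) ≤ x⁻¹ := by
      rw [hτ1] at h1
      unfold ff at h1
      refine le_trans (Th_mono hg0.le (by linarith) S fun G _ => ?_) h1
      refine ind_mono ?_
      intro h4 h5
      obtain ⟨Y, hY, h6, h7⟩ := h5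
      refine h4 ⟨Y, hY, h6, h7.trans ?_⟩
      rw [hδ1]
      refine div_le_self (by positivity) ?_
      have : (0 : ℝ) ≤ (Y.card : ℝ) := Nat.cast_nonneg _
      linarith
    have h4 := hTr E D S X g n κ1 ((x ^ 20)⁻¹) x⁻¹ a x hg0 (by linarith) hn0.le (by linarith)
      (by positivity) ha0 hx0 h3
    have h5 : (x⁻¹ + 1 / x) / a = 2 * y ^ 23 / x := by
      rw [ha]
      field_simp
      ring
    rw [h5] at h4
    have h6 : (y ^ 163)⁻¹ ≤ Th g S (fun G => F.ind (¬ Fm (S \ G) X)) +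
        Th g S (fun G => F.ind (Ev V G)) := by
      refine h2.trans ?_
      rw [← Th_add]
      refine Th_mono hg0.le (by linarith) S fun G _ => ?_
      by_cases h7 : Fm (S \ G) X
      · rw [ind_neg (not_not.2 h7), zero_add]
        refine ind_mono fun h8 => ⟨X, hXV, h7, fun U' hU' hcard hHp => h8 ?_⟩
        refine ⟨U', hU', hcard, ?_⟩
        have h9 : Th (n / (1 - g)) (S \ G) (fun N => F.ind (¬ D (U' ∪ G ∪ N))) ≤ 3 * a := hHp
        refine h9.trans ?_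
        rw [hδ0, le_div_iff₀ (by positivity)]
        have h10 : ((U'.card : ℝ) + 1) ≤ y := by
          have h11 : U'.card + 1 ≤ xx B i := by
            refine le_trans ?_ (pow200_le_xx (by omega : 2 ≤ B) i)
            rw [← hκ0']
            omega
          rw [hy]
          exact_mod_cast h11
        calc 3 * a * ((U'.card : ℝ) + 1) ≤ 3 * a * y :=
              mul_le_mul_of_nonneg_left h10 (by positivity)
          _ ≤ (y ^ 20)⁻¹ := by
            rw [ha]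
            rw [← div_eq_mul_inv, div_mul_eq_mul_div, div_le_iff₀ (by positivity)]
            have h12 : (y ^ 20)⁻¹ * y ^ 23 = y ^ 3 := by
              field_simp
            rw [h12]
            nlinarith [mul_pos hy0 hy0]
      · rw [ind_pos h7]
        have := ind_nonneg (Ev V G)
        have := ind_le_one (¬ ∃ Y ⊆ X, good (n / (1 - g)) (lev B i) D S G Y)
        linarith
    have h7 : (y ^ 163)⁻¹ ≤ 2 * y ^ 23 / x + Th g S (fun G => F.ind (Ev V G)) := by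
      linarith [h6, h4]
    have h8 : 2 * y ^ 23 / x ≤ (y ^ 163)⁻¹ / 2 := by
      rw [hxy, div_le_div_iff₀ (by positivity) (by norm_num)]
      have e1 : (y ^ 163)⁻¹ * y ^ 200 = y ^ 37 := by
        field_simp
      rw [e1]
      have e2 : y ^ 37 = y ^ 23 * y ^ 14 := by ring
      rw [e2]
      have e3 : (4 : ℝ) ≤ y ^ 14 := by
        calc (4 : ℝ) ≤ 16 ^ 14 := by norm_num
          _ ≤ y ^ 14 := pow_le_pow_left₀ (by norm_num) hy16 14
      nlinarith [pow_pos hy0 23]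
    have h9 : (y ^ 163)⁻¹ / 2 ≤ Th g S (fun G => F.ind (Ev V G)) := by linarith
    calc (1 : ℝ) = (2 * y ^ 163) * ((y ^ 163)⁻¹ / 2) := by field_simp
      _ ≤ (2 * y ^ 163) * Th g S (fun G => F.ind (Ev V G)) :=
        mul_le_mul_of_nonneg_left h9 (by positivity)
  refine (Th_mono hp0.le (by linarith) univ fun V _ => key V).trans ?_
  rw [Th_mul]
  have hJ' := hJ E Fm Hp (fun R A A' hA h => fam_mono hg'0 hg'1 hA h) p g κ0 hp0 (by linarith) hg0
    (by linarith) hple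
  have hC' := hC p g n lam hp0 hp1 hg0 hgn hn1 hc.lam1 hc.qj E D hD κ1 (x * (x ^ 20)⁻¹) a
    (by positivity) ha0
  have hJC := hJ'.trans (add_le_add_right hC' _)
  -- the two bounds
  have b1 : (p / ((1 - p) * g)) ^ (κ0 + 1) ≤ (x ^ 120)⁻¹ := by
    have e1 : p / ((1 - p) * g) ≤ ((B : ℝ) ^ 24000)⁻¹ := by
      rw [div_le_iff₀ hpg0, ← div_eq_inv_mul, le_div_iff₀ (by positivity)]
      linarith
    calc (p / ((1 - p) * g)) ^ (κ0 + 1) ≤ (((B : ℝ) ^ 24000)⁻¹) ^ (κ0 + 1) :=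
          pow_le_pow_left₀ (div_nonneg hp0.le hpg0.le) e1 _
      _ = (x ^ 120)⁻¹ := by
        rw [inv_pow, hκ0', ← pow_mul, hxy, ← pow_mul, hy]
        unfold xx
        push_cast
        rw [← pow_mul]
        congr 2
        ring
  have b2 : (lam ^ κ1 * (x * (x ^ 20)⁻¹)) ^ 7 / a ^ 17 ≤ (x ^ 120)⁻¹ := by
    have e1 : lam ^ κ1 ≤ x := by
      calc lam ^ κ1 ≤ (B : ℝ) ^ κ1 := pow_le_pow_left₀ (by linarith [hc.lam1]) hc.lamB _
        _ ≤ (B : ℝ) ^ 200 ^ (i + 1) := pow_le_pow_right₀ hBpos hκ1'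
        _ = x := by
          rw [hx]
          unfold xx
          push_cast
          rfl
    have hlam0 : (0 : ℝ) ≤ lam := by linarith [hc.lam1]
    have e2 : lam ^ κ1 * (x * (x ^ 20)⁻¹) ≤ (x ^ 18)⁻¹ := by
      calc lam ^ κ1 * (x * (x ^ 20)⁻¹) ≤ x * (x * (x ^ 20)⁻¹) :=
            mul_le_mul_of_nonneg_right e1 (by positivity)
        _ = (x ^ 18)⁻¹ := by field_simp
    have e3 : (lam ^ κ1 * (x * (x ^ 20)⁻¹)) ^ 7 ≤ (x ^ 126)⁻¹ := by
      calc (lam ^ κ1 * (x * (x ^ 20)⁻¹)) ^ 7 ≤ ((x ^ 18)⁻¹) ^ 7 :=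
            pow_le_pow_left₀ (by positivity) e2 7
        _ = (x ^ 126)⁻¹ := by rw [inv_pow, ← pow_mul]
    have e4 : a ^ 17 = (y ^ 391)⁻¹ := by rw [ha, inv_pow, ← pow_mul]
    rw [e4, div_inv_eq_mul]
    have e5 : y ^ 391 ≤ x ^ 2 := by
      rw [hxy, ← pow_mul]
      exact pow_le_pow_right₀ hy1 (by norm_num)
    calc (lam ^ κ1 * (x * (x ^ 20)⁻¹)) ^ 7 * y ^ 391 ≤ (x ^ 126)⁻¹ * x ^ 2 :=
          mul_le_mul e3 e5 (by positivity) (by positivity)
      _ = (x ^ 124)⁻¹ := by field_simp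
      _ ≤ (x ^ 120)⁻¹ := by
        refine inv_anti₀ (by positivity) (pow_le_pow_right₀ hx1 (by norm_num))
  have b3 : Th p univ (fun V => Th g (univ \ V) (fun G => F.ind (Ev V G))) ≤ 2 * (x ^ 120)⁻¹ := by
    refine hJC.trans ?_
    linarith
  calc (2 * y ^ 163) * Th p univ (fun V => Th g (univ \ V) (fun G => F.ind (Ev V G)))
      ≤ (2 * y ^ 163) * (2 * (x ^ 120)⁻¹) := mul_le_mul_of_nonneg_left b3 (by positivity)
    _ ≤ (x ^ 119)⁻¹ := by
      have e1 : 4 * y ^ 163 ≤ x := by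
        rw [hxy]
        have e2 : y ^ 200 = y ^ 37 * y ^ 163 := by ring
        rw [e2]
        have e3 : (4 : ℝ) ≤ y ^ 37 := by
          calc (4 : ℝ) ≤ 16 ^ 37 := by norm_num
            _ ≤ y ^ 37 := pow_le_pow_left₀ (by norm_num) hy16 37
        exact mul_le_mul_of_nonneg_right e3 (by positivity)
      calc (2 * y ^ 163) * (2 * (x ^ 120)⁻¹) = (4 * y ^ 163) * (x ^ 120)⁻¹ := by ring
        _ ≤ x * (x ^ 120)⁻¹ := mul_le_mul_of_nonneg_right e1 (by positivity)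
        _ = (x ^ 119)⁻¹ := by field_simp

end Vale.Agent.P331.H718
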